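import Vale.Agent.P133.R2.H307.BuiltCB

namespace Vale.Agent.Results.P133.CSpaceFields

universe u v

open Vale.Agent.P133.Statement Vale.Agent.P133.H832 Vale.Agent.P133.R2.H778
  Vale.Agent.P133.R2.H307

/-- (1) Let `X` be a locally compact Hausdorff space whose compact subsets have property C and let
`A` be the algebra of sections of an upper semicontinuous field of C*-algebras `B t` over `X`.
Then `A` is purely infinite if and only if all `B t` are, and the three notions of Q1 coincide for
`A` as soon as they coincide for all `B t`.
(2) The three notions coincide for all members of the class `BuiltC`. -/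
theorem result :
    (∀ (X : Type v) [TopologicalSpace X] [LocallyCompactSpace X] [T2Space X] (B : X → Type u)
      (A : Type u) [∀ t, NonUnitalCStarAlgebra (B t)] [∀ t, PartialOrder (B t)]
      [∀ t, StarOrderedRing (B t)] [NonUnitalCStarAlgebra A] [PartialOrder A]
      [StarOrderedRing A], (∀ K : Set X, IsCompact K → PropertyC K) → IsSectionAlgebra B A →
      (PurelyInfinite A ↔ ∀ t, PurelyInfinite (B t)) ∧ ((∀ t, Coincide (B t)) → Coincide A)) ∧
    (∀ (A : Type u) [NonUnitalCStarAlgebra A] [PartialOrder A] [StarOrderedRing A],
      BuiltC A → Coincide A) :=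
  ⟨fun _ _ _ _ _ _ _ _ _ _ _ _ hX h => fieldC hX h, fun _ _ _ _ hA => builtC_coincide hA⟩

end Vale.Agent.Results.P133.CSpaceFields
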