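import Vale.Agent.P133.R2.H198.Final

namespace Vale.Agent.Results.P133.CountablePieces

universe u

open Vale.Agent.P133.Statement Vale.Agent.P133.H832 Vale.Agent.P133.H198

/-- (1) Countable decompositions. Let the primitive spectrum of the C*-algebra `A` be the union of
countably many locally closed subsets, the primitive spectra of subquotients `S k` of `A` (in any
position, not necessarily disjoint). Then `A` is purely infinite if and only if all `S k` are, and
if the three notions (weakly purely infinite, purely infinite, strongly purely infinite) coincide
for all `S k` then they coincide for `A`.
(2) A C*-algebra is purely infinite if and only if every nonzero quotient of it has a nonzero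
purely infinite closed ideal. -/
theorem result :
    Decompositions.{u} ∧
    ∀ (A : Type u) [NonUnitalCStarAlgebra A] [PartialOrder A] [StarOrderedRing A],
      PurelyInfinite A ↔ ∀ (B : Type u) [NonUnitalCStarAlgebra B] (q : A →⋆ₙₐ[ℂ] B),
        Function.Surjective q → (∃ b : B, b ≠ 0) → HasPIIdeal B :=
  ⟨decompositions, pi_iff_quot⟩

end Vale.Agent.Results.P133.CountablePieces
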