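import Vale.Agent.P133.R2.H28.Cases
import Vale.Agent.P133.R2.H28.Colours
import Vale.Agent.P133.R2.H28.Count
import Vale.Agent.P133.R2.H28.Unital
import Vale.Agent.P133.R2.H328.Soft
import Vale.Agent.P133.R2.H354.Final
import Vale.Agent.P133.R2.H448.Gen

namespace Vale.Agent.Results.P133.OrthogonalSums

universe u

open Vale.Agent.P133.Statement Vale.Agent.P133.H832 Vale.Agent.P133.H681 Vale.Agent.P133F

/-- Question (b).
(1) For every `n` there are numbers `N` and `T` such that in every C*-algebra `A` in which the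
`n`-fold amplification of every positive element is properly infinite: if `x 0, …, x (N - 1)` are
positive and pairwise orthogonal and `c ≥ 0` is in the closed ideal generated by each of them,
then all multiples of `c` are Cuntz below their sum; and for all `a ≥ 0` and `δ > 0` there are `T`
positive elements, all of whose multiples are Cuntz below `a`, such that `(a - δ)₊` is in the
closed ideal generated by their sum (for `T = 1` this would be pure infiniteness).
Let `A` be a weakly purely infinite C*-algebra.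
(2) `A` is purely infinite if and only if for every `a ≥ 0` and `δ > 0` the hereditary
subalgebra `Her a` contains two orthogonal positive elements such that `(a - δ)₊` is in the
closed ideal generated by each of them.
(3) `A` is purely infinite if and only if for every `a ≥ 0` and `δ > 0` there is a self-adjoint
`d` in `Her a` which is not a scalar multiple of the unit of `Her a` modulo any closed ideal of
`A` without `(a - δ)₊`.
(4) `A` is purely infinite if and only if for every `a ≥ 0` and `δ > 0` there is `x` in `Her a`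
which is not normal modulo any closed ideal of `A` without `(a - δ)₊`.
(5) If not all multiples of `a ≥ 0` are Cuntz below `a`, then for some `t > 0` and some closed
ideal `J` without `a` the spectrum of `a` modulo `J` does not meet the open interval `(0, t)`.
(6) `A` is purely infinite and strongly purely infinite if no quotient of `A` contains a nonzero
projection, or the central sequence algebra of `A` has no characters (`NoCentralChar A`), or the
hereditary subalgebras of `A` are locally singly generated (`LocGen A`), or locally countably many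
ideals suffice (`LocCount A`).
(7) All weakly purely infinite C*-algebras are purely infinite if and only if every unital weakly
purely infinite C*-algebra contains a self-adjoint element which is not scalar modulo any proper
closed ideal. -/
theorem result :
    (∀ n : ℕ, 1 ≤ n → ∃ N T : ℕ, ∀ (A : Type u) [NonUnitalCStarAlgebra A] [PartialOrder A]
      [StarOrderedRing A], (∀ h : A, 0 ≤ h → ProperlyInfiniteMat (diagN n h)) →
      (∀ (x : Fin N → A) (c : A), (∀ i, 0 ≤ x i) → (∀ i j, i ≠ j → x i * x j = 0) → 0 ≤ c →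
        (∀ i, InId (x i) c) → AllBelow (∑ i, x i) c) ∧
      ∀ a : A, 0 ≤ a → ∀ δ : ℝ, 0 < δ → Vale.Agent.P133.R2.H28.Cover T a δ) ∧
    (∀ (A : Type u) [NonUnitalCStarAlgebra A] [PartialOrder A] [StarOrderedRing A],
      WeaklyPurelyInfinite A →
        (PurelyInfinite A ↔ ∀ a : A, 0 ≤ a → ∀ δ : ℝ, 0 < δ → ∃ b₁ b₂ : A, 0 ≤ b₁ ∧ 0 ≤ b₂ ∧
          b₁ * b₂ = 0 ∧ b₁ ∈ Vale.Agent.P133.R2.H28.Her a ∧ b₂ ∈ Vale.Agent.P133.R2.H28.Her a ∧
          InId b₁ (Vale.Agent.P133.R2.H28.cut a δ) ∧
          InId b₂ (Vale.Agent.P133.R2.H28.cut a δ)) ∧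
        (PurelyInfinite A ↔ ∀ a : A, 0 ≤ a → ∀ δ : ℝ, 0 < δ → ∃ d : A, IsSelfAdjoint d ∧
          d ∈ Vale.Agent.P133.R2.H28.Her a ∧ ∀ P : Submodule ℂ A, IsClosedIdeal P →
            Vale.Agent.P133.R2.H28.cut a δ ∉ P → ∀ l : ℝ, d * a - l • a ∉ P) ∧
        (PurelyInfinite A ↔ ∀ a : A, 0 ≤ a → ∀ δ : ℝ, 0 < δ → ∃ x : A,
          x ∈ Vale.Agent.P133.R2.H28.Her a ∧ ∀ P : Submodule ℂ A, IsClosedIdeal P →
            Vale.Agent.P133.R2.H28.cut a δ ∉ P → star x * x - x * star x ∉ P) ∧
        (∀ a : A, 0 ≤ a → (∀ t : ℝ, 0 < t → ∀ J : Submodule ℂ A, IsClosedIdeal J →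
          (∀ g : ℝ → ℝ, Continuous g → (∀ s, s ∉ Set.Ioo 0 t → g s = 0) → cfcₙ g a ∈ J) →
            a ∈ J) → AllBelow a a) ∧
        ((∀ J : Submodule ℂ A, IsClosedIdeal J → ∀ e : A, 0 ≤ e → e * e - e ∈ J → e ∈ J) ∨
          Vale.Agent.P133.R2.H354.NoCentralChar A ∨ Vale.Agent.P133.R2.H28.LocGen A ∨
          Vale.Agent.P133.R2.H28.LocCount A → PurelyInfinite A ∧ StronglyPurelyInfinite A)) ∧
    ((∀ (A : Type u) [NonUnitalCStarAlgebra A] [PartialOrder A] [StarOrderedRing A],
      WeaklyPurelyInfinite A → PurelyInfinite A) ↔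
      ∀ (A : Type u) [CStarAlgebra A] [PartialOrder A] [StarOrderedRing A],
        WeaklyPurelyInfinite A → ∃ h : A, IsSelfAdjoint h ∧ ∀ J : Submodule ℂ A,
          IsClosedIdeal J → (1 : A) ∉ J → ∀ l : ℝ, h - algebraMap ℝ A l ∉ J) := by
  refine ⟨fun n hn => ?_, fun A _ _ _ hW => ⟨Vale.Agent.P133.R2.H28.pi_iff_twoOrth hW,
    (Vale.Agent.P133.R2.H28.pi_iff_twoOrth hW).trans Vale.Agent.P133.R2.H28.twoOrth_iff,
    Vale.Agent.P133.R2.H448.pi_iff_nowhereNormal hW,
    fun _ ha hs => Vale.Agent.P133.R2.H328.soft hW ha hs, fun h => ?_⟩,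
    Vale.Agent.P133.R2.H28.unital_iff⟩
  · obtain ⟨T, hT⟩ := Vale.Agent.P133.R2.H28.colours.{u} n
    exact ⟨Vale.Agent.P133.R2.H28.numS n, T, fun A _ _ _ hA =>
      ⟨fun x c hx ho hc hI => Vale.Agent.P133.R2.H28.allBelow_sum n hn hA le_rfl x hx ho c hc hI,
        fun a ha δ hδ => hT A (Vale.Agent.P133.R2.H905.wpi_n hA hn) a ha δ hδ⟩⟩
  · have h1 : PurelyInfinite A := by
      rcases h with h | h | h | h
      · exact Vale.Agent.P133.R2.H328.pi_of_no_proj hW h
      · exact (Vale.Agent.P133.R2.H28.pi_iff_twoOrth hW).2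
          (Vale.Agent.P133.R2.H354.twoOrth_of_noCentralChar h)
      · exact Vale.Agent.P133.R2.H448.pi_of_generated hW h
      · exact Vale.Agent.P133.R2.H28.pi_of_countable hW h
    exact ⟨h1, spi_of_eltPI A (eltPI_of A h1)⟩

end Vale.Agent.Results.P133.OrthogonalSums
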