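import Vale.Agent.P133.R2.H695.Clauses
import Vale.Agent.P133.R2.H486.Top

namespace Vale.Agent.Results.P133.TransfiniteDimension

universe u

open Vale.Agent.P133.Statement Vale.Agent.P133F Vale.Agent.P133.H832 Vale.Agent.P133.H695

/-- Question (b) in transfinite dimension.
(1) Weakly, ordinary and strongly purely infinite coincide for every C*-algebra of transfinite
inductive dimension.
(2) More generally, if any two open subsets of the primitive ideal space of `A` can be separated
along closed subsets for whose algebras `C k` the three notions coincide, then they coincide
for `A`.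
(3) Let `A` be the algebra of sections of an upper semicontinuous field of C*-algebras `B t` over a
locally compact Hausdorff space all of whose compact subsets have transfinite inductive dimension.
Then `A` is purely infinite if and only if it is weakly purely infinite and all fibres are purely
infinite. If the three notions coincide for every fibre, they coincide for `A`.
(4) A compact Hausdorff space all of whose compact subsets that miss one given point have
transfinite inductive dimension has transfinite inductive dimension; an example is the one-point
compactification of the disjoint union of all cubes `[0, 1]^n`. -/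
theorem result :
    (∀ (A : Type u) [NonUnitalCStarAlgebra A] [PartialOrder A] [StarOrderedRing A],
      TrDim A → Coincide A) ∧
    (∀ (K : Type u) (C : K → Type u) [∀ k, NonUnitalCStarAlgebra (C k)]
      [∀ k, PartialOrder (C k)] [∀ k, StarOrderedRing (C k)]
      (A : Type u) [NonUnitalCStarAlgebra A] [PartialOrder A] [StarOrderedRing A],
      IsSepAlong C A → (∀ k, Coincide (C k)) → Coincide A) ∧
    (∀ (X : Type u) [TopologicalSpace X] [LocallyCompactSpace X] [T2Space X],
      (∀ K : Set X, IsCompact K → TrInd K) →
      ∀ (B : X → Type u) [∀ t, NonUnitalCStarAlgebra (B t)] [∀ t, PartialOrder (B t)]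
        [∀ t, StarOrderedRing (B t)] (A : Type u) [NonUnitalCStarAlgebra A] [PartialOrder A]
        [StarOrderedRing A], IsSectionAlgebra B A →
        (PurelyInfinite A ↔ WeaklyPurelyInfinite A ∧ ∀ t, PurelyInfinite (B t)) ∧
        ((∀ t, Coincide (B t)) → Coincide A)) ∧
    (∀ (X : Type u) [TopologicalSpace X] [CompactSpace X] [T2Space X] (x₀ : X),
      (∀ K : Set X, IsCompact K → x₀ ∉ K → TrInd K) → TrInd X) ∧
    TrInd (OnePoint (Σ n : ℕ, (Fin n → unitInterval))) :=
  ⟨fun _ _ _ _ => trDim_clause, fun _ _ _ _ _ _ _ _ _ => sep_clause,
    fun _ _ _ _ hX _ _ _ _ _ _ _ _ h => tfield_clause hX h,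
    fun _ _ _ _ x₀ h => Vale.Agent.P133.H486.trInd_of_point x₀ h,
    Vale.Agent.P133.H486.trInd_cubes⟩

end Vale.Agent.Results.P133.TransfiniteDimension
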